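import Mathlib
import Vale.Agent.Lib.P243.helper23.PlanarBM

open MeasureTheory Measure Set
open scoped ENNReal Pointwise

namespace Vale.Agent.Lib.P237.helper23

/-- The planar cross product. -/
def cross (p q : ℝ × ℝ) : ℝ := p.1 * q.2 - p.2 * q.1

/-- Lebesgue measure of the image of a planar set under the linear map with a given matrix. -/
theorem vol_image2 (α β γ δ : ℝ) (S : Set (ℝ × ℝ)) :
    volume ((fun p : ℝ × ℝ => (α * p.1 + β * p.2, γ * p.1 + δ * p.2)) '' S) =
      ENNReal.ofReal |α * δ - β * γ| * volume S := by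
  have h := Measure.addHaar_image_linearMap (volume : Measure (ℝ × ℝ))
    (Matrix.toLin (Module.Basis.finTwoProd ℝ) (Module.Basis.finTwoProd ℝ) !![α, β; γ, δ]) S
  rw [LinearMap.det_toLin, Matrix.det_fin_two_of] at h
  have hfun : (fun p : ℝ × ℝ => (α * p.1 + β * p.2, γ * p.1 + δ * p.2)) =
      ⇑(Matrix.toLin (Module.Basis.finTwoProd ℝ) (Module.Basis.finTwoProd ℝ) !![α, β; γ, δ]) := by
    funext p
    rw [Matrix.toLin_finTwoProd_apply]
  rw [hfun]
  exact h

/-- Adding a segment to a nonempty compact subset of the line. -/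
theorem line_add_seg {S : Set ℝ} (hSc : IsCompact S) (hne : S.Nonempty) {c : ℝ} (hc : 0 ≤ c) :
    volume S + ENNReal.ofReal c ≤ volume {y : ℝ | ∃ a ∈ S, ∃ t ∈ Icc (0 : ℝ) c, y = a + t} := by
  have hm : sSup S ∈ S := hSc.sSup_mem hne
  have hle : ∀ a ∈ S, a ≤ sSup S := fun a ha => le_csSup hSc.bddAbove ha
  have hsub : S ∪ Ioc (sSup S) (sSup S + c) ⊆
      {y : ℝ | ∃ a ∈ S, ∃ t ∈ Icc (0 : ℝ) c, y = a + t} := by
    rintro y (hy | hy)
    · exact ⟨y, hy, 0, ⟨le_rfl, hc⟩, by ring⟩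
    · exact ⟨sSup S, hm, y - sSup S, ⟨by linarith [hy.1], by linarith [hy.2]⟩, by ring⟩
  have hdisj : Disjoint S (Ioc (sSup S) (sSup S + c)) := by
    rw [Set.disjoint_left]
    intro a ha ha'
    exact absurd (hle a ha) (not_le.2 ha'.1)
  calc volume S + ENNReal.ofReal c
      = volume S + volume (Ioc (sSup S) (sSup S + c)) := by
        rw [Real.volume_Ioc]; congr 2; ring
    _ = volume (S ∪ Ioc (sSup S) (sSup S + c)) := (measure_union hdisj measurableSet_Ioc).symm
    _ ≤ _ := measure_mono hsub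

/-- Adding a vertical segment of length `c` to a compact planar set increases its area by at
least `c` times the length of its horizontal projection. -/
theorem add_vert_seg {A : Set (ℝ × ℝ)} (hAc : IsCompact A) {c : ℝ} (hc : 0 ≤ c) :
    volume A + ENNReal.ofReal c * volume (Prod.fst '' A) ≤
      volume {p : ℝ × ℝ | ∃ a ∈ A, ∃ t ∈ Icc (0 : ℝ) c, p = (a.1, a.2 + t)} := by
  obtain ⟨A', hA'⟩ : ∃ A' : Set (ℝ × ℝ),
      A' = {p : ℝ × ℝ | ∃ a ∈ A, ∃ t ∈ Icc (0 : ℝ) c, p = (a.1, a.2 + t)} := ⟨_, rfl⟩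
  rw [← hA']
  have himg : A' = (fun q : (ℝ × ℝ) × ℝ => (q.1.1, q.1.2 + q.2)) '' (A ×ˢ Icc (0 : ℝ) c) := by
    rw [hA']
    ext p
    constructor
    · rintro ⟨a, ha, t, ht, rfl⟩
      exact ⟨(a, t), ⟨ha, ht⟩, rfl⟩
    · rintro ⟨⟨a, t⟩, ⟨ha, ht⟩, rfl⟩
      exact ⟨a, ha, t, ht, rfl⟩
  have hA'c : IsCompact A' := by
    rw [himg]
    exact (hAc.prod isCompact_Icc).image (by fun_prop)
  have hAm : MeasurableSet A := hAc.measurableSet
  have hA'm : MeasurableSet A' := hA'c.measurableSet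
  have hPc : IsCompact (Prod.fst '' A) := hAc.image continuous_fst
  have hPm : MeasurableSet (Prod.fst '' A) := hPc.measurableSet
  have e1 : volume A' = ∫⁻ x, volume (Prod.mk x ⁻¹' A') := by
    rw [Measure.volume_eq_prod, Measure.prod_apply hA'm]
  have e2 : volume A = ∫⁻ x, volume (Prod.mk x ⁻¹' A) := by
    rw [Measure.volume_eq_prod, Measure.prod_apply hAm]
  have e3 : ENNReal.ofReal c * volume (Prod.fst '' A) =
      ∫⁻ x, (Prod.fst '' A).indicator (fun _ => ENNReal.ofReal c) x := by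
    rw [lintegral_indicator hPm, setLIntegral_const, mul_comm]
  rw [e1, e2, e3, ← lintegral_add_left (measurable_measure_prodMk_left hAm)]
  refine lintegral_mono (fun x => ?_)
  by_cases hx : x ∈ Prod.fst '' A
  · rw [indicator_of_mem hx]
    have hsc : IsCompact (Prod.mk x ⁻¹' A) := by
      have h : Prod.mk x ⁻¹' A = Prod.snd '' (A ∩ {q | q.1 = x}) := by
        ext y
        constructor
        · intro hy
          exact ⟨(x, y), ⟨hy, rfl⟩, rfl⟩
        · rintro ⟨q, ⟨hq, hqx⟩, rfl⟩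
          have hqx' : q.1 = x := hqx
          show (x, q.2) ∈ A
          rw [← hqx']
          exact hq
      rw [h]
      exact (hAc.inter_right (isClosed_eq continuous_fst continuous_const)).image continuous_snd
    have hsne : (Prod.mk x ⁻¹' A).Nonempty := by
      obtain ⟨a, ha, rfl⟩ := hx
      exact ⟨a.2, ha⟩
    refine le_trans (line_add_seg hsc hsne hc) (measure_mono ?_)
    rintro y ⟨a, ha, t, ht, rfl⟩
    show (x, a + t) ∈ A'
    rw [hA']
    exact ⟨(x, a), ha, t, ht, rfl⟩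
  · rw [indicator_of_notMem hx, add_zero]
    have hempty : Prod.mk x ⁻¹' A = ∅ := by
      ext y
      simp only [mem_preimage, mem_empty_iff_false, iff_false]
      intro hy
      exact hx ⟨(x, y), hy, rfl⟩
    rw [hempty, measure_empty]
    exact zero_le

/-- Adding a segment `[0, w]` to a compact convex planar set increases its area by at least
the area of the parallelogram spanned by `w` and any difference of two points of the set. -/
theorem mink_seg {B : Set (ℝ × ℝ)} (hB : Convex ℝ B) (hBc : IsCompact B) (w : ℝ × ℝ)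
    {b b' : ℝ × ℝ} (hb : b ∈ B) (hb' : b' ∈ B) :
    volume B + ENNReal.ofReal |cross (b - b') w| ≤
      volume {p : ℝ × ℝ | ∃ q ∈ B, ∃ t ∈ Icc (0 : ℝ) 1, p = q + t • w} := by
  obtain ⟨C, hC⟩ : ∃ C : Set (ℝ × ℝ),
      C = {p : ℝ × ℝ | ∃ q ∈ B, ∃ t ∈ Icc (0 : ℝ) 1, p = q + t • w} := ⟨_, rfl⟩
  rw [← hC]
  by_cases hw : w = 0
  · have h0 : cross (b - b') w = 0 := by rw [hw]; unfold cross; simp
    rw [h0, abs_zero, ENNReal.ofReal_zero, add_zero]
    refine measure_mono ?_
    intro q hq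
    rw [hC]
    exact ⟨q, hq, 0, ⟨le_rfl, zero_le_one⟩, by simp⟩
  obtain ⟨N, hN⟩ : ∃ N : ℝ, N = w.1 * w.1 + w.2 * w.2 := ⟨_, rfl⟩
  have hNpos : 0 < N := by
    rw [hN]
    have h12 : w.1 ≠ 0 ∨ w.2 ≠ 0 := by
      by_contra hcon
      rw [not_or, not_not, not_not] at hcon
      exact hw (Prod.ext hcon.1 hcon.2)
    rcases h12 with h | h
    · have := mul_self_pos.2 h
      nlinarith [mul_self_nonneg w.2]
    · have := mul_self_pos.2 h
      nlinarith [mul_self_nonneg w.1]
  obtain ⟨T, hT⟩ : ∃ T : ℝ × ℝ → ℝ × ℝ,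
      T = fun p => (w.2 * p.1 + (-w.1) * p.2, w.1 * p.1 + w.2 * p.2) := ⟨_, rfl⟩
  have hdet : |w.2 * w.2 - (-w.1) * w.1| = N := by
    rw [hN, abs_of_nonneg (by nlinarith [mul_self_nonneg w.1, mul_self_nonneg w.2])]
    ring
  have hTvol : ∀ S : Set (ℝ × ℝ), volume (T '' S) = ENNReal.ofReal N * volume S := by
    intro S
    rw [hT, ← hdet]
    exact vol_image2 _ _ _ _ S
  have hTcont : Continuous T := by rw [hT]; fun_prop
  have hTBc : IsCompact (T '' B) := hBc.image hTcont
  have hsub : {p : ℝ × ℝ | ∃ a ∈ T '' B, ∃ t ∈ Icc (0 : ℝ) N, p = (a.1, a.2 + t)} ⊆ T '' C := by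
    rintro p ⟨a, ⟨q, hq, rfl⟩, t, ht, rfl⟩
    refine ⟨q + (t / N) • w, ?_, ?_⟩
    · rw [hC]
      exact ⟨q, hq, t / N, ⟨div_nonneg ht.1 hNpos.le, (div_le_one hNpos).2 ht.2⟩, rfl⟩
    · rw [hT]
      simp only [Prod.fst_add, Prod.snd_add, Prod.smul_fst, Prod.smul_snd, smul_eq_mul]
      refine Prod.ext ?_ ?_
      · simp only
        ring
      · simp only
        have hNne : N ≠ 0 := hNpos.ne'
        have e : w.1 * (q.1 + t / N * w.1) + w.2 * (q.2 + t / N * w.2) =
            w.1 * q.1 + w.2 * q.2 + t / N * (w.1 * w.1 + w.2 * w.2) := by ring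
        rw [e, ← hN, div_mul_cancel₀ _ hNne]
  have hproj : ENNReal.ofReal |cross (b - b') w| ≤ volume (Prod.fst '' (T '' B)) := by
    obtain ⟨f, hf⟩ : ∃ f : ℝ × ℝ → ℝ, f = fun p => w.2 * p.1 + (-w.1) * p.2 := ⟨_, rfl⟩
    have himg : Prod.fst '' (T '' B) = f '' B := by
      rw [image_image, hT, hf]
    have hfc : Continuous f := by rw [hf]; fun_prop
    have hconn : IsPreconnected (f '' B) := hB.isPreconnected.image f hfc.continuousOn
    have hsubI : uIcc (f b') (f b) ⊆ f '' B :=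
      hconn.ordConnected.uIcc_subset ⟨b', hb', rfl⟩ ⟨b, hb, rfl⟩
    have hval : f b - f b' = cross (b - b') w := by
      rw [hf]
      unfold cross
      simp only [Prod.fst_sub, Prod.snd_sub]
      ring
    rw [himg, ← hval]
    calc ENNReal.ofReal |f b - f b'| = volume (uIcc (f b') (f b)) := by
          rw [Real.volume_interval]
      _ ≤ volume (f '' B) := measure_mono hsubI
  have key := add_vert_seg hTBc hNpos.le
  have h1 : ENNReal.ofReal N * (volume B + ENNReal.ofReal |cross (b - b') w|) ≤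
      ENNReal.ofReal N * volume C := by
    calc ENNReal.ofReal N * (volume B + ENNReal.ofReal |cross (b - b') w|)
        = volume (T '' B) + ENNReal.ofReal N * ENNReal.ofReal |cross (b - b') w| := by
          rw [mul_add, hTvol]
      _ ≤ volume (T '' B) + ENNReal.ofReal N * volume (Prod.fst '' (T '' B)) := by
          gcongr
      _ ≤ _ := key
      _ ≤ volume (T '' C) := measure_mono hsub
      _ = _ := hTvol C
  exact (ENNReal.mul_le_mul_iff_right (ENNReal.ofReal_pos.2 hNpos).ne' ENNReal.ofReal_ne_top).1 h1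

/-- The difference body of a compact convex planar set has at least four times its area
(a consequence of the Brunn-Minkowski inequality). -/
theorem diff_body {B : Set (ℝ × ℝ)} (hB : Convex ℝ B) (hBc : IsCompact B) (hne : B.Nonempty) :
    4 * volume B ≤ volume {p : ℝ × ℝ | ∃ b ∈ B, ∃ b' ∈ B, p = b - b'} := by
  obtain ⟨D, hD⟩ : ∃ D : Set (ℝ × ℝ), D = {p : ℝ × ℝ | ∃ b ∈ B, ∃ b' ∈ B, p = b - b'} :=
    ⟨_, rfl⟩
  rw [← hD]
  have hbm := Vale.Agent.Lib.P243.helper23.planar_bm hB hB.neg hBc hBc.neg hne hne.neg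
    (θ := 1 / 2) (by norm_num) (by norm_num)
  have hneg : volume (-B) = volume B := Measure.measure_neg _ B
  have hset : (1 - 1 / 2 : ℝ) • B + (1 / 2 : ℝ) • (-B) = (1 / 2 : ℝ) • D := by
    rw [hD]
    ext p
    constructor
    · rintro ⟨x, ⟨b, hb, rfl⟩, y, ⟨c, hc, rfl⟩, rfl⟩
      refine ⟨b - (-c), ⟨b, hb, -c, hc, rfl⟩, ?_⟩
      simp only [smul_sub, smul_neg]
      norm_num
    · rintro ⟨q, ⟨b, hb, b', hb', rfl⟩, rfl⟩
      refine ⟨(1 - 1 / 2 : ℝ) • b, ⟨b, hb, rfl⟩, (1 / 2 : ℝ) • (-b'), ⟨-b', ?_, rfl⟩, ?_⟩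
      · simpa using hb'
      · simp only [smul_sub, smul_neg]
        norm_num
        abel
  have hvol : volume ((1 / 2 : ℝ) • D) = ENNReal.ofReal (1 / 4) * volume D := by
    rw [Measure.addHaar_smul]
    congr 2
    simp
    norm_num
  rw [hset, hneg, hvol] at hbm
  have hBfin : volume B ≠ ⊤ := hBc.measure_lt_top.ne
  by_cases hDfin : volume D = ⊤
  · rw [hDfin]; exact le_top
  have h1 : Real.sqrt (volume B).toReal ≤ Real.sqrt ((1 / 4) * (volume D).toReal) := by
    have e : (ENNReal.ofReal (1 / 4) * volume D).toReal = (1 / 4) * (volume D).toReal := by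
      rw [ENNReal.toReal_mul, ENNReal.toReal_ofReal (by norm_num)]
    rw [e] at hbm
    linarith
  have h2 : (volume B).toReal ≤ (1 / 4) * (volume D).toReal :=
    (Real.sqrt_le_sqrt_iff (by positivity)).1 h1
  have h3 : 4 * (volume B).toReal ≤ (volume D).toReal := by linarith
  calc 4 * volume B = ENNReal.ofReal (4 * (volume B).toReal) := by
        rw [ENNReal.ofReal_mul (by norm_num), ENNReal.ofReal_toReal hBfin]
        norm_num
    _ ≤ ENNReal.ofReal (volume D).toReal := ENNReal.ofReal_le_ofReal h3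
    _ = volume D := ENNReal.ofReal_toReal hDfin

end Vale.Agent.Lib.P237.helper23
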