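import Mathlib
import Vale.Agent.Lib.P237.helper23.Planar
import Vale.Agent.Lib.P243.helper23.CoplanarEucl

open MeasureTheory Measure Set
open scoped ENNReal InnerProductSpace

namespace Vale.Agent.Lib.P237.helper23

open Vale.Agent.Lib.P243.helper23 (Frame exists_frame fr fr_apply fr_surjective plane area_plane
  inner_fr_n)

/-- Euclidean three-space. -/
abbrev E3 := EuclideanSpace ℝ (Fin 3)

/-- The vector with given coordinates. -/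
noncomputable def vec (a b c : ℝ) : E3 := WithLp.toLp 2 ![a, b, c]

@[simp] theorem vec_zero (a b c : ℝ) : vec a b c 0 = a := rfl
@[simp] theorem vec_one (a b c : ℝ) : vec a b c 1 = b := rfl
@[simp] theorem vec_two (a b c : ℝ) : vec a b c 2 = c := rfl

theorem inner3 (x y : E3) : ⟪x, y⟫_ℝ = x 0 * y 0 + x 1 * y 1 + x 2 * y 2 := by
  simp only [PiLp.inner_apply, Fin.sum_univ_three, RCLike.inner_apply, conj_trivial]
  ring

theorem finrank_E3 : Module.finrank ℝ E3 = 3 := by simp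

/-- The right cylinder `B × [0, h]`. -/
def cyl (B : Set (ℝ × ℝ)) (h : ℝ) : Set E3 := {x | (x 0, x 1) ∈ B ∧ 0 ≤ x 2 ∧ x 2 ≤ h}

/-- In an orthonormal frame the cross product of the first two vectors is plus or minus the
third. -/
theorem frame_cross {e₁ e₂ u : E3} (F : Frame e₁ e₂ u) :
    ∃ σ : ℝ, |σ| = 1 ∧ e₁ 1 * e₂ 2 - e₁ 2 * e₂ 1 = σ * u 0 ∧
      e₁ 2 * e₂ 0 - e₁ 0 * e₂ 2 = σ * u 1 ∧ e₁ 0 * e₂ 1 - e₁ 1 * e₂ 0 = σ * u 2 := by
  obtain ⟨q, hq⟩ := fr_surjective finrank_E3 F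
    (vec (e₁ 1 * e₂ 2 - e₁ 2 * e₂ 1) (e₁ 2 * e₂ 0 - e₁ 0 * e₂ 2) (e₁ 0 * e₂ 1 - e₁ 1 * e₂ 0))
  have h11 := F.h11
  have h22 := F.h22
  have h12 := F.h12
  have hnn := F.hnn
  rw [inner3] at h11 h22 h12 hnn
  have h1 : q.1.1 = 0 := by
    have h := congrArg (fun v => ⟪v, e₁⟫_ℝ) hq
    simp only [fr_apply, inner_add_left, real_inner_smul_left, F.h11, F.h21, F.hn1] at h
    rw [inner3] at h
    simp only [vec_zero, vec_one, vec_two] at h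
    linarith [h, show (e₁ 1 * e₂ 2 - e₁ 2 * e₂ 1) * e₁ 0 + (e₁ 2 * e₂ 0 - e₁ 0 * e₂ 2) * e₁ 1 +
      (e₁ 0 * e₂ 1 - e₁ 1 * e₂ 0) * e₁ 2 = 0 by ring]
  have h2 : q.1.2 = 0 := by
    have h := congrArg (fun v => ⟪v, e₂⟫_ℝ) hq
    simp only [fr_apply, inner_add_left, real_inner_smul_left, F.h12, F.h22, F.hn2] at h
    rw [inner3] at h
    simp only [vec_zero, vec_one, vec_two] at h
    linarith [h, show (e₁ 1 * e₂ 2 - e₁ 2 * e₂ 1) * e₂ 0 + (e₁ 2 * e₂ 0 - e₁ 0 * e₂ 2) * e₂ 1 +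
      (e₁ 0 * e₂ 1 - e₁ 1 * e₂ 0) * e₂ 2 = 0 by ring]
  have hc : ∀ i, vec (e₁ 1 * e₂ 2 - e₁ 2 * e₂ 1) (e₁ 2 * e₂ 0 - e₁ 0 * e₂ 2)
      (e₁ 0 * e₂ 1 - e₁ 1 * e₂ 0) i = q.2 * u i := by
    intro i
    rw [← hq, fr_apply, h1, h2]
    simp
  have c0 := hc 0
  have c1 := hc 1
  have c2 := hc 2
  simp only [vec_zero, vec_one, vec_two] at c0 c1 c2
  have hsq : q.2 * q.2 = 1 := by
    have e : (e₁ 1 * e₂ 2 - e₁ 2 * e₂ 1) ^ 2 + (e₁ 2 * e₂ 0 - e₁ 0 * e₂ 2) ^ 2 +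
        (e₁ 0 * e₂ 1 - e₁ 1 * e₂ 0) ^ 2 =
        (e₁ 0 * e₁ 0 + e₁ 1 * e₁ 1 + e₁ 2 * e₁ 2) * (e₂ 0 * e₂ 0 + e₂ 1 * e₂ 1 + e₂ 2 * e₂ 2) -
          (e₁ 0 * e₂ 0 + e₁ 1 * e₂ 1 + e₁ 2 * e₂ 2) ^ 2 := by ring
    rw [h11, h22, h12, c0, c1, c2] at e
    nlinarith [e, hnn]
  refine ⟨q.2, ?_, c0, c1, c2⟩
  have h3 : |q.2| * |q.2| = 1 := by rw [← abs_mul, hsq, abs_one]
  nlinarith [abs_nonneg q.2]

/-- Lower bound for the area of the orthogonal projection of a right cylinder. -/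
theorem shadow_ge {B : Set (ℝ × ℝ)} (hB : Convex ℝ B) (hBc : IsCompact B) {h : ℝ} (hh : 0 ≤ h)
    (u : E3) (hu : ‖u‖ = 1) {b b' : ℝ × ℝ} (hb : b ∈ B) (hb' : b' ∈ B) :
    ENNReal.ofReal |u 2| * volume B + ENNReal.ofReal (h * |cross (b - b') (u 0, u 1)|) ≤
      (μHE[2] : Measure E3) ((fun x : E3 => x - ⟪x, u⟫_ℝ • u) '' cyl B h) := by
  obtain ⟨e₁, e₂, F⟩ := exists_frame finrank_E3 hu
  obtain ⟨σ, hσ, hc0, hc1, hc2⟩ := frame_cross F
  have hproj : ∀ x : E3, x - ⟪x, u⟫_ℝ • u = plane e₁ e₂ (⟪x, e₁⟫_ℝ, ⟪x, e₂⟫_ℝ) := by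
    intro x
    obtain ⟨q, rfl⟩ := fr_surjective finrank_E3 F x
    have i1 : ⟪fr e₁ e₂ u q, e₁⟫_ℝ = q.1.1 := by
      simp only [fr_apply, inner_add_left, real_inner_smul_left, F.h11, F.h21, F.hn1]
      ring
    have i2 : ⟪fr e₁ e₂ u q, e₂⟫_ℝ = q.1.2 := by
      simp only [fr_apply, inner_add_left, real_inner_smul_left, F.h12, F.h22, F.hn2]
      ring
    rw [inner_fr_n F, i1, i2]
    unfold plane
    simp only [fr_apply]
    module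
  obtain ⟨G, hG⟩ : ∃ G : E3 → ℝ × ℝ, G = fun x => (⟪x, e₁⟫_ℝ, ⟪x, e₂⟫_ℝ) := ⟨_, rfl⟩
  have himg : (fun x : E3 => x - ⟪x, u⟫_ℝ • u) '' cyl B h = plane e₁ e₂ '' (G '' cyl B h) := by
    rw [image_image, hG]
    exact image_congr (fun x _ => hproj x)
  have hn1 : ‖e₁‖ = 1 := by rw [norm_eq_sqrt_real_inner, F.h11, Real.sqrt_one]
  have hn2 : ‖e₂‖ = 1 := by rw [norm_eq_sqrt_real_inner, F.h22, Real.sqrt_one]
  rw [himg, area_plane hn1 hn2 F.h12]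
  -- the planar picture
  obtain ⟨M, hM⟩ : ∃ M : ℝ × ℝ → ℝ × ℝ,
      M = fun p => (e₁ 0 * p.1 + e₁ 1 * p.2, e₂ 0 * p.1 + e₂ 1 * p.2) := ⟨_, rfl⟩
  obtain ⟨w, hw⟩ : ∃ w : ℝ × ℝ, w = (h * e₁ 2, h * e₂ 2) := ⟨_, rfl⟩
  have hsub : {p : ℝ × ℝ | ∃ q ∈ M '' B, ∃ t ∈ Icc (0 : ℝ) 1, p = q + t • w} ⊆ G '' cyl B h := by
    rintro p ⟨q, ⟨p₀, hp₀, rfl⟩, t, ht, rfl⟩
    refine ⟨vec p₀.1 p₀.2 (t * h), ⟨?_, ?_, ?_⟩, ?_⟩
    · simpa using hp₀
    · simpa using mul_nonneg ht.1 hh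
    · simpa using mul_le_of_le_one_left hh ht.2
    · rw [hG, hM, hw]
      simp only [inner3, vec_zero, vec_one, vec_two, Prod.mk_add_mk, Prod.smul_mk, smul_eq_mul]
      refine Prod.ext ?_ ?_
      · simp only
        ring
      · simp only
        ring
  have hMlin : IsLinearMap ℝ M := by
    rw [hM]
    refine ⟨fun x y => ?_, fun c x => ?_⟩
    · simp only [Prod.fst_add, Prod.snd_add, Prod.mk_add_mk]
      refine Prod.ext ?_ ?_
      · simp only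
        ring
      · simp only
        ring
    · simp only [Prod.smul_fst, Prod.smul_snd, smul_eq_mul, Prod.smul_mk]
      refine Prod.ext ?_ ?_
      · simp only
        ring
      · simp only
        ring
  have hMc : Continuous M := by rw [hM]; fun_prop
  have hMB : Convex ℝ (M '' B) := hB.is_linear_image hMlin
  have hMBc : IsCompact (M '' B) := hBc.image hMc
  have key := mink_seg hMB hMBc w (mem_image_of_mem M hb) (mem_image_of_mem M hb')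
  have hvol : volume (M '' B) = ENNReal.ofReal |u 2| * volume B := by
    rw [hM, vol_image2, hc2, abs_mul, hσ, one_mul]
  have hcr : |cross (M b - M b') w| = h * |cross (b - b') (u 0, u 1)| := by
    have e : cross (M b - M b') w = -(h * σ) * cross (b - b') (u 0, u 1) := by
      rw [hM, hw]
      unfold cross
      simp only [Prod.fst_sub, Prod.snd_sub]
      linear_combination (h * (b.2 - b'.2)) * hc0 - (h * (b.1 - b'.1)) * hc1
    rw [e, abs_mul, abs_neg, abs_mul, hσ, mul_one, abs_of_nonneg hh]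
  rw [hvol, hcr] at key
  exact le_trans key (measure_mono hsub)

end Vale.Agent.Lib.P237.helper23
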