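import Mathlib
import Vale.Agent.Lib.P237.helper23.Shadow

open MeasureTheory Measure Set
open scoped ENNReal InnerProductSpace

namespace Vale.Agent.Lib.P237.helper23

/-- Cartesian coordinates on Euclidean three-space, as a measurable equivalence. -/
noncomputable def Psi : E3 ≃ᵐ (ℝ × ℝ) × ℝ :=
  ((MeasurableEquiv.toLp 2 (Fin 3 → ℝ)).symm.trans
    (MeasurableEquiv.piFinSuccAbove (fun _ => ℝ) (Fin.last 2))).trans
    ((MeasurableEquiv.prodCongr (MeasurableEquiv.refl ℝ) MeasurableEquiv.finTwoArrow).trans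
      MeasurableEquiv.prodComm)

theorem Psi_apply (x : E3) : Psi x = ((x 0, x 1), x 2) := rfl

theorem Psi_mp : MeasurePreserving Psi volume volume := by
  unfold Psi
  refine ((EuclideanSpace.volume_preserving_symm_measurableEquiv_toLp (Fin 3)).trans
    (volume_preserving_piFinSuccAbove (fun _ => ℝ) (Fin.last 2))).trans ?_
  refine MeasurePreserving.trans
    (μb := (volume : Measure (ℝ × (ℝ × ℝ)))) ?_ ?_
  · exact (MeasurePreserving.id volume).prod (volume_preserving_finTwoArrow ℝ)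
  · exact Measure.measurePreserving_swap

/-- Volume of a set of product type in Euclidean three-space. -/
theorem vol_prodset (S : Set (ℝ × ℝ)) (I : Set ℝ) :
    volume {x : E3 | (x 0, x 1) ∈ S ∧ x 2 ∈ I} = volume S * volume I := by
  have h : {x : E3 | (x 0, x 1) ∈ S ∧ x 2 ∈ I} = Psi ⁻¹' (S ×ˢ I) := by
    ext x
    simp only [mem_ofPred_eq, mem_preimage, Psi_apply, mem_prod]
  rw [h, Psi_mp.measure_preimage_equiv, Measure.volume_eq_prod, Measure.prod_prod]

theorem vol_cyl (B : Set (ℝ × ℝ)) (h : ℝ) :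
    volume (cyl B h) = volume B * ENNReal.ofReal h := by
  have e : cyl B h = {x : E3 | (x 0, x 1) ∈ B ∧ x 2 ∈ Icc (0 : ℝ) h} := by
    ext x
    simp only [cyl, mem_ofPred_eq, mem_Icc]
  rw [e, vol_prodset, Real.volume_Icc, sub_zero]

/-- The projection body of a right cylinder over a planar convex body has volume at least
eight times the squared volume of the cylinder. -/
theorem petty_cyl {B : Set (ℝ × ℝ)} (hB : Convex ℝ B) (hBc : IsCompact B) (hne : B.Nonempty)
    {h : ℝ} (hh : 0 ≤ h) :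
    8 * volume (cyl B h) ^ 2 ≤
      volume {x : E3 | ∀ u : E3, ‖u‖ = 1 → ENNReal.ofReal ⟪x, u⟫_ℝ ≤
        (μHE[2] : Measure E3) ((fun y : E3 => y - ⟪y, u⟫_ℝ • u) '' cyl B h)} := by
  have hBfin : volume B ≠ ⊤ := hBc.measure_lt_top.ne
  obtain ⟨β, hβ⟩ : ∃ β : ℝ, β = (volume B).toReal := ⟨_, rfl⟩
  have hβ0 : 0 ≤ β := by rw [hβ]; exact ENNReal.toReal_nonneg
  have hβv : ENNReal.ofReal β = volume B := by rw [hβ, ENNReal.ofReal_toReal hBfin]
  obtain ⟨D, hD⟩ : ∃ D : Set (ℝ × ℝ), D = {p : ℝ × ℝ | ∃ b ∈ B, ∃ b' ∈ B, p = b - b'} :=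
    ⟨_, rfl⟩
  obtain ⟨S, hS⟩ : ∃ S : Set (ℝ × ℝ),
      S = (fun p : ℝ × ℝ => (0 * p.1 + (-h) * p.2, h * p.1 + 0 * p.2)) '' D := ⟨_, rfl⟩
  have hSvol : volume S = ENNReal.ofReal h ^ 2 * volume D := by
    rw [hS, vol_image2]
    congr 1
    have e : (0 : ℝ) * 0 - -h * h = h ^ 2 := by ring
    rw [e, abs_of_nonneg (sq_nonneg h), ENNReal.ofReal_pow hh]
  have hsub : {x : E3 | (x 0, x 1) ∈ S ∧ x 2 ∈ Icc (-β) β} ⊆
      {x : E3 | ∀ u : E3, ‖u‖ = 1 → ENNReal.ofReal ⟪x, u⟫_ℝ ≤
        (μHE[2] : Measure E3) ((fun y : E3 => y - ⟪y, u⟫_ℝ • u) '' cyl B h)} := by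
    rintro x ⟨hxS, hx2⟩ u hu
    rw [hS] at hxS
    obtain ⟨d, hd, hdx⟩ := hxS
    rw [hD] at hd
    obtain ⟨b, hb, b', hb', rfl⟩ := hd
    have hx0 : x 0 = -h * (b - b').2 := by
      have := congrArg Prod.fst hdx
      simp only at this
      linarith
    have hx1 : x 1 = h * (b - b').1 := by
      have := congrArg Prod.snd hdx
      simp only at this
      linarith
    have hin : ⟪x, u⟫_ℝ ≤ |u 2| * β + h * |cross (b - b') (u 0, u 1)| := by
      rw [inner3, hx0, hx1]
      have e : -h * (b - b').2 * u 0 + h * (b - b').1 * u 1 + x 2 * u 2 =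
          h * cross (b - b') (u 0, u 1) + x 2 * u 2 := by
        unfold cross
        ring
      rw [e]
      have h1 : h * cross (b - b') (u 0, u 1) ≤ h * |cross (b - b') (u 0, u 1)| :=
        mul_le_mul_of_nonneg_left (le_abs_self _) hh
      have h2 : x 2 * u 2 ≤ |u 2| * β := by
        have h3 : |x 2| ≤ β := abs_le.2 hx2
        calc x 2 * u 2 ≤ |x 2 * u 2| := le_abs_self _
          _ = |u 2| * |x 2| := by rw [abs_mul, mul_comm]
          _ ≤ |u 2| * β := mul_le_mul_of_nonneg_left h3 (abs_nonneg _)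
      linarith
    calc ENNReal.ofReal ⟪x, u⟫_ℝ
        ≤ ENNReal.ofReal (|u 2| * β + h * |cross (b - b') (u 0, u 1)|) :=
          ENNReal.ofReal_le_ofReal hin
      _ = ENNReal.ofReal |u 2| * volume B + ENNReal.ofReal (h * |cross (b - b') (u 0, u 1)|) := by
          rw [ENNReal.ofReal_add (mul_nonneg (abs_nonneg _) hβ0)
            (mul_nonneg hh (abs_nonneg _)), ENNReal.ofReal_mul (abs_nonneg _), hβv]
      _ ≤ _ := shadow_ge hB hBc hh u hu hb hb'
  have hdiff : 4 * volume B ≤ volume D := by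
    rw [hD]
    exact diff_body hB hBc hne
  have hI : volume (Icc (-β) β) = 2 * volume B := by
    rw [Real.volume_Icc]
    have e : β - -β = 2 * β := by ring
    rw [e, ENNReal.ofReal_mul (by norm_num), hβv]
    norm_num
  calc 8 * volume (cyl B h) ^ 2
      = ENNReal.ofReal h ^ 2 * (4 * volume B) * (2 * volume B) := by
        rw [vol_cyl B h]
        ring
    _ ≤ ENNReal.ofReal h ^ 2 * volume D * (2 * volume B) := by
        gcongr
    _ = volume {x : E3 | (x 0, x 1) ∈ S ∧ x 2 ∈ Icc (-β) β} := by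
        rw [vol_prodset, hSvol, hI]
    _ ≤ _ := measure_mono hsub

end Vale.Agent.Lib.P237.helper23
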